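import Vale.Agent.P159.T1.NW.Props

/-!
The lattice sum of the near critical window.
-/

open Finset

namespace Vale.Agent.P159.T1.NW.H566

open Vale.Agent.P159

/-- sup norm as a natural number -/
def nm (x : ℤ × ℤ) : ℕ := max x.1.natAbs x.2.natAbs

theorem ll_eq (x : ℤ × ℤ) : ll x = Real.log (max 1 (nm x : ℝ)) := by
  unfold ll nm
  have h : (max |x.1| |x.2| : ℤ) = ((max x.1.natAbs x.2.natAbs : ℕ) : ℤ) := by
    rw [Nat.cast_max, Int.natCast_natAbs, Int.natCast_natAbs]
  rw [h]
  simp only [Int.cast_natCast]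

theorem ll_nonneg (x : ℤ × ℤ) : 0 ≤ ll x := Real.log_nonneg (le_max_left _ _)

/-- the sites of norm `k` -/
theorem card_shell (T : Finset (ℤ × ℤ)) (k : ℕ) : ((T.filter fun f => nm f = k).card : ℝ) ≤
    8 * (k + 1) := by
  classical
  have hsub : (T.filter fun f => nm f = k) ⊆
      (({(k : ℤ), -(k : ℤ)} : Finset ℤ) ×ˢ Finset.Icc (-(k : ℤ)) k) ∪
      (Finset.Icc (-(k : ℤ)) k ×ˢ ({(k : ℤ), -(k : ℤ)} : Finset ℤ)) := by
    intro f hf
    have h := (Finset.mem_filter.1 hf).2
    simp only [nm] at h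
    simp only [Finset.mem_union, Finset.mem_product, Finset.mem_insert, Finset.mem_singleton,
      Finset.mem_Icc]
    rcases max_choice f.1.natAbs f.2.natAbs with h1 | h1
    · left; omega
    · right; omega
  have h1 : (T.filter fun f => nm f = k).card ≤ 2 * (2 * k + 1) + (2 * k + 1) * 2 := by
    refine (Finset.card_le_card hsub).trans ((Finset.card_union_le _ _).trans ?_)
    rw [Finset.card_product, Finset.card_product, Int.card_Icc]
    have e : ((k : ℤ) + 1 - -(k : ℤ)).toNat = 2 * k + 1 := by omega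
    rw [e]
    have h2 : (({(k : ℤ), -(k : ℤ)} : Finset ℤ)).card ≤ 2 := Finset.card_le_two
    exact Nat.add_le_add (Nat.mul_le_mul_right _ h2) (Nat.mul_le_mul_left _ h2)
  have h2 : ((T.filter fun f => nm f = k).card : ℝ) ≤
      ((2 * (2 * k + 1) + (2 * k + 1) * 2 : ℕ) : ℝ) := by exact_mod_cast h1
  push_cast at h2
  linarith

/-- the sum over all sites of norm at most `N` -/
theorem sum_le {κ : ℝ} (h1 : κ ≤ 1 / 4) (T : Finset (ℤ × ℤ)) (N : ℕ) (hN : 1 ≤ N)
    (hT : ∀ f ∈ T, nm f ≤ N) :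
    ∑ f ∈ T, Real.exp (-(4 * κ * ll f)) ≤ 32 * Real.exp ((2 - 4 * κ) * Real.log N) := by
  classical
  have hN1 : (1 : ℝ) ≤ N := by exact_mod_cast hN
  have hN0 : (0 : ℝ) < N := by linarith
  have hfib : ∑ f ∈ T, Real.exp (-(4 * κ * ll f)) =
      ∑ k ∈ Finset.range (N + 1), ∑ f ∈ T.filter (fun f => nm f = k),
        Real.exp (-(4 * κ * ll f)) :=
    (Finset.sum_fiberwise_of_maps_to (fun f hf => by
      have := hT f hf; simp; omega) _).symm
  have hk : ∀ k ∈ Finset.range (N + 1),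
      ∑ f ∈ T.filter (fun f => nm f = k), Real.exp (-(4 * κ * ll f)) ≤
        16 * Real.exp ((1 - 4 * κ) * Real.log N) := by
    intro k hk
    have hkN : k ≤ N := Nat.lt_succ_iff.1 (Finset.mem_range.1 hk)
    set M : ℝ := max 1 (k : ℝ) with hM
    have hM1 : 1 ≤ M := le_max_left _ _
    have hM0 : 0 < M := by linarith
    have hMN : M ≤ N := max_le hN1 (by exact_mod_cast hkN)
    have h3 : ∀ f ∈ T.filter (fun f => nm f = k), Real.exp (-(4 * κ * ll f)) =
        Real.exp (-(4 * κ * Real.log M)) := by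
      intro f hf
      rw [ll_eq, (Finset.mem_filter.1 hf).2]
    rw [Finset.sum_congr rfl h3, Finset.sum_const, nsmul_eq_mul]
    have h4 : (k : ℝ) + 1 ≤ 2 * M := by
      have := le_max_right (1 : ℝ) (k : ℝ)
      linarith
    have h5 : M * Real.exp (-(4 * κ * Real.log M)) = Real.exp ((1 - 4 * κ) * Real.log M) := by
      conv_lhs => rw [← Real.exp_log hM0]
      rw [Real.log_exp, ← Real.exp_add]
      congr 1
      ring
    have h6 : Real.exp ((1 - 4 * κ) * Real.log M) ≤ Real.exp ((1 - 4 * κ) * Real.log N) :=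
      Real.exp_le_exp.2 (mul_le_mul_of_nonneg_left (Real.log_le_log hM0 hMN) (by linarith))
    calc ((T.filter fun f => nm f = k).card : ℝ) * Real.exp (-(4 * κ * Real.log M))
        ≤ 8 * ((k : ℝ) + 1) * Real.exp (-(4 * κ * Real.log M)) :=
          mul_le_mul_of_nonneg_right (card_shell T k) (Real.exp_pos _).le
      _ ≤ 8 * (2 * M) * Real.exp (-(4 * κ * Real.log M)) := by
          refine mul_le_mul_of_nonneg_right ?_ (Real.exp_pos _).le
          linarith
      _ = 16 * (M * Real.exp (-(4 * κ * Real.log M))) := by ring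
      _ ≤ 16 * Real.exp ((1 - 4 * κ) * Real.log N) := by
          rw [h5]
          linarith
  rw [hfib]
  refine (Finset.sum_le_sum hk).trans ?_
  rw [Finset.sum_const, Finset.card_range, nsmul_eq_mul]
  push_cast
  have h7 : (N : ℝ) * Real.exp ((1 - 4 * κ) * Real.log N) =
      Real.exp ((2 - 4 * κ) * Real.log N) := by
    conv_lhs => rw [← Real.exp_log hN0]
    rw [Real.log_exp, ← Real.exp_add]
    congr 1
    ring
  have h8 : (N : ℝ) + 1 ≤ 2 * N := by linarith
  have h9 := mul_le_mul_of_nonneg_right h8 (Real.exp_pos ((1 - 4 * κ) * Real.log N)).le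
  nlinarith

/-- logarithms at neighbouring sites -/
theorem ll_near {x y : ℤ × ℤ} (h : nm x ≤ nm y + 1) : ll x ≤ ll y + Real.log 2 := by
  rw [ll_eq, ll_eq]
  have hy : (0 : ℝ) < max 1 (nm y : ℝ) := lt_of_lt_of_le one_pos (le_max_left _ _)
  rw [← Real.log_mul hy.ne' (by norm_num)]
  refine Real.log_le_log (lt_of_lt_of_le one_pos (le_max_left _ _)) ?_
  have h1 : (nm x : ℝ) ≤ nm y + 1 := by exact_mod_cast h
  have h2 := le_max_left (1 : ℝ) (nm y : ℝ)
  have h3 := le_max_right (1 : ℝ) (nm y : ℝ)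
  exact max_le (by linarith) (by linarith)

theorem nn_cases {u v : ℤ × ℤ} (h : nn 1 u v ≠ 0) : v = u + (1, 0) ∨ v = u + (0, 1) := by
  by_contra hc
  exact h (by simp only [nn]; rw [if_neg hc])

theorem nn_nonneg (u v : ℤ × ℤ) : 0 ≤ nn 1 u v := by
  unfold nn
  split_ifs <;> norm_num

theorem nm_near {u v : ℤ × ℤ} (h : v = u + (1, 0) ∨ v = u + (0, 1)) : nm u ≤ nm v + 1 := by
  rcases h with h | h <;>
  · subst h
    simp only [nm, Prod.fst_add, Prod.snd_add, add_zero]
    omega

theorem nm_near_sub {x u v : ℤ × ℤ} (h : v = u + (1, 0) ∨ v = u + (0, 1)) :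
    nm (x - u) ≤ nm (x - v) + 1 := by
  rcases h with h | h <;>
  · subst h
    simp only [nm, Prod.fst_sub, Prod.snd_sub, Prod.fst_add, Prod.snd_add, add_zero]
    omega

/-- one bond -/
theorem term_le {κ : ℝ} (h0 : 0 ≤ κ) (h1 : κ ≤ 1 / 4) (x u v : ℤ × ℤ) :
    nn 1 u v * Real.exp (-(κ * (ll u + ll v + ll (x - u) + ll (x - v)))) ≤
      nn 1 u v * (Real.exp (-(4 * κ * ll u)) + Real.exp (-(4 * κ * ll (x - u)))) := by
  by_cases hc : nn 1 u v = 0
  · rw [hc, zero_mul, zero_mul]
  refine mul_le_mul_of_nonneg_left ?_ (nn_nonneg u v)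
  have h := nn_cases hc
  have a1 := ll_near (nm_near h)
  have a2 := ll_near (nm_near_sub (x := x) h)
  have b1 : -(κ * (ll u + ll v + ll (x - u) + ll (x - v))) ≤
      Real.log 2 + (-(2 * κ * ll u) + -(2 * κ * ll (x - u))) := by
    have hl : 0 ≤ Real.log 2 := Real.log_nonneg (by norm_num)
    have c1 : κ * ll u ≤ κ * (ll v + Real.log 2) := mul_le_mul_of_nonneg_left a1 h0
    have c2 : κ * ll (x - u) ≤ κ * (ll (x - v) + Real.log 2) :=
      mul_le_mul_of_nonneg_left a2 h0
    have c3 : κ * Real.log 2 ≤ 1 / 4 * Real.log 2 := mul_le_mul_of_nonneg_right h1 hl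
    nlinarith
  refine (Real.exp_le_exp.2 b1).trans ?_
  rw [Real.exp_add, Real.exp_log (by norm_num), Real.exp_add]
  have d1 : Real.exp (-(4 * κ * ll u)) = Real.exp (-(2 * κ * ll u)) ^ 2 := by
    rw [← Real.exp_nat_mul]
    congr 1
    push_cast
    ring
  have d2 : Real.exp (-(4 * κ * ll (x - u))) = Real.exp (-(2 * κ * ll (x - u))) ^ 2 := by
    rw [← Real.exp_nat_mul]
    congr 1
    push_cast
    ring
  rw [d1, d2]
  nlinarith [sq_nonneg (Real.exp (-(2 * κ * ll u)) - Real.exp (-(2 * κ * ll (x - u))))]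

/-- every site has at most two upper neighbours -/
theorem sum_nn_le (R : ℕ) (u : ℤ × ℤ) : ∑ v : box R, nn 1 u v ≤ 2 := by
  classical
  have h1 : ∀ v : box R, nn 1 u v ≤
      (if (v : ℤ × ℤ) = u + (1, 0) then 1 else 0) + (if (v : ℤ × ℤ) = u + (0, 1) then 1 else 0) := by
    intro v
    unfold nn
    split_ifs with a b c <;> simp_all
  have h2 : ∀ w : ℤ × ℤ, ∑ v : box R, (if (v : ℤ × ℤ) = w then (1 : ℝ) else 0) ≤ 1 := by
    intro w
    rw [Finset.sum_boole]
    have : (Finset.univ.filter fun v : box R => (v : ℤ × ℤ) = w).card ≤ 1 := by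
      refine Finset.card_le_one.2 fun a ha b hb => ?_
      exact Subtype.ext (((Finset.mem_filter.1 ha).2).trans ((Finset.mem_filter.1 hb).2).symm)
    exact_mod_cast this
  refine (Finset.sum_le_sum fun v _ => h1 v).trans ?_
  rw [Finset.sum_add_distrib]
  linarith [h2 (u + (1, 0)), h2 (u + (0, 1))]

theorem nm_box {R : ℕ} {x : ℤ × ℤ} (hx : x ∈ box R) : nm x ≤ R := by
  unfold box at hx
  rw [Finset.mem_Icc, Prod.le_def, Prod.le_def] at hx
  simp only at hx
  unfold nm
  omega

/-- **the lattice sum** -/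
theorem stmtSum : StmtSum := by
  classical
  intro κ h0 h1
  refine ⟨512, by norm_num, fun R hR x hx => ?_⟩
  have hR1 : (1 : ℝ) ≤ R := by exact_mod_cast hR
  have hR0 : (0 : ℝ) < R := by linarith
  set g : ℤ × ℤ → ℝ := fun u => Real.exp (-(4 * κ * ll u)) + Real.exp (-(4 * κ * ll (x - u)))
    with hg
  have hg0 : ∀ u, 0 ≤ g u := fun u => add_nonneg (Real.exp_pos _).le (Real.exp_pos _).le
  have s1 : ∑ e : box R × box R, nn 1 e.1 e.2 *
      Real.exp (-(κ * (ll e.1 + ll e.2 + ll (x - e.1) + ll (x - e.2)))) ≤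
      ∑ u : box R, 2 * g u := by
    rw [Fintype.sum_prod_type]
    refine Finset.sum_le_sum fun u _ => ?_
    refine (Finset.sum_le_sum fun (v : box R) _ =>
      term_le h0 h1 x (u : ℤ × ℤ) (v : ℤ × ℤ)).trans ?_
    rw [← Finset.sum_mul]
    exact mul_le_mul_of_nonneg_right (sum_nn_le R u) (hg0 u)
  have hB : Real.exp ((2 - 4 * κ) * Real.log ((2 * R : ℕ) : ℝ)) ≤
      4 * Real.exp ((2 - 4 * κ) * Real.log R) := by
    push_cast
    rw [Real.log_mul (by norm_num) hR0.ne', mul_add, Real.exp_add]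
    refine mul_le_mul_of_nonneg_right ?_ (Real.exp_pos _).le
    have hl : 0 ≤ Real.log 2 := Real.log_nonneg (by norm_num)
    calc Real.exp ((2 - 4 * κ) * Real.log 2) ≤ Real.exp (2 * Real.log 2) :=
          Real.exp_le_exp.2 (mul_le_mul_of_nonneg_right (by linarith) hl)
      _ = 4 := by
          rw [two_mul, Real.exp_add, Real.exp_log (by norm_num)]
          norm_num
  have s2 : ∑ u : box R, Real.exp (-(4 * κ * ll (u : ℤ × ℤ))) ≤
      128 * Real.exp ((2 - 4 * κ) * Real.log R) := by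
    rw [Finset.sum_coe_sort (box R) fun u => Real.exp (-(4 * κ * ll u))]
    refine (sum_le h1 (box R) (2 * R) (by omega) fun f hf => ?_).trans (by linarith)
    have := nm_box hf
    omega
  have s3 : ∑ u : box R, Real.exp (-(4 * κ * ll (x - (u : ℤ × ℤ)))) ≤
      128 * Real.exp ((2 - 4 * κ) * Real.log R) := by
    rw [Finset.sum_coe_sort (box R) fun u => Real.exp (-(4 * κ * ll (x - u)))]
    have e1 : ∑ u ∈ box R, Real.exp (-(4 * κ * ll (x - u))) =
        ∑ w ∈ (box R).image (fun u => x - u), Real.exp (-(4 * κ * ll w)) := by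
      rw [Finset.sum_image]
      intro a _ b _ hab
      exact sub_right_injective hab
    rw [e1]
    refine (sum_le h1 _ (2 * R) (by omega) fun f hf => ?_).trans (by linarith)
    obtain ⟨u, hu, rfl⟩ := Finset.mem_image.1 hf
    have a1 := nm_box hu
    have a2 := nm_box hx
    simp only [nm, Prod.fst_sub, Prod.snd_sub] at a1 a2 ⊢
    omega
  refine s1.trans ?_
  rw [← Finset.mul_sum]
  simp only [hg]
  rw [Finset.sum_add_distrib]
  linarith

end Vale.Agent.P159.T1.NW.H566
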