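import Vale.Agent.P159.T1.NW.Props2
import Vale.Agent.P159.Bdl.B8

/-!
Lower bound of the susceptibility from the near critical window.
-/

open Finset

namespace Vale.Agent.P159.T1.NW.H566

open Vale.Agent.P159

theorem card_box_erase (n : ℕ) : (4 : ℝ) * (n : ℝ) ^ 2 ≤ (((box n).erase 0).card : ℝ) := by
  have h0 : (0 : ℤ × ℤ) ∈ box n := by
    unfold box
    rw [Finset.mem_Icc, Prod.le_def, Prod.le_def]
    simp
  have h1 : (box n).card = (2 * n + 1) * (2 * n + 1) := by
    rw [XY.card_box, pow_two]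
  rw [Finset.card_erase_of_mem h0, h1]
  have h2 : 4 * n ^ 2 ≤ (2 * n + 1) * (2 * n + 1) - 1 := by
    have : (2 * n + 1) * (2 * n + 1) = 4 * n ^ 2 + 4 * n + 1 := by ring
    omega
  exact_mod_cast h2

theorem norm_box {n : ℕ} {x : ℤ × ℤ} (hx : x ∈ box n) :
    ((max |x.1| |x.2| : ℤ) : ℝ) ≤ n := by
  unfold box at hx
  rw [Finset.mem_Icc, Prod.le_def, Prod.le_def] at hx
  simp only at hx
  have h : (max |x.1| |x.2| : ℤ) ≤ (n : ℤ) :=
    max_le (abs_le.2 ⟨hx.1.1, hx.2.1⟩) (abs_le.2 ⟨hx.1.2, hx.2.2⟩)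
  exact_mod_cast h

theorem norm_pos {x : ℤ × ℤ} (hx : x ≠ 0) : (1 : ℝ) ≤ ((max |x.1| |x.2| : ℤ) : ℝ) := by
  have h : (1 : ℤ) ≤ max |x.1| |x.2| := by
    by_contra hc
    push Not at hc
    have h1 : |x.1| < 1 := lt_of_le_of_lt (le_max_left _ _) hc
    have h2 : |x.2| < 1 := lt_of_le_of_lt (le_max_right _ _) hc
    exact hx (Prod.ext (Int.abs_lt_one_iff.1 h1) (Int.abs_lt_one_iff.1 h2))
  exact_mod_cast h

/-- **growth of the susceptibility** -/
theorem stmtChi : StmtChi := by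
  classical
  intro κ hκ hκ1 hW γ hγ hγ2
  set ε : ℝ := min (1 / 2) ((2 - κ - γ * (2 - 2 * κ)) / (γ + 1)) with hε
  have hε0 : 0 < ε := lt_min (by norm_num) (div_pos (by linarith) (by linarith))
  have hε1 : ε ≤ 1 / 2 := min_le_left _ _
  have hε2 : ε * (γ + 1) ≤ 2 - κ - γ * (2 - 2 * κ) := by
    have h := min_le_right (1 / 2 : ℝ) ((2 - κ - γ * (2 - 2 * κ)) / (γ + 1))
    rw [← hε, le_div_iff₀ (by linarith)] at h
    exact h
  obtain ⟨c, hc, hc2⟩ := hW ε hε0
  set p : ℝ := 2 - 2 * κ + ε with hp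
  set q : ℝ := 2 - (κ + ε) with hq
  have hp0 : 0 < p := by linarith
  have hq0 : 0 < q := by linarith
  have hq2 : q ≤ 2 := by linarith
  have hγq : γ * p ≤ q := by
    rw [hp, hq]
    nlinarith
  refine ⟨c ^ γ * min 1 c, mul_pos (Real.rpow_pos_of_pos hc γ) (lt_min one_pos hc),
    fun b hb hbb => ?_⟩
  have hm := XY.mass_pos_of_lt_bCrit hb hbb
  have hS : Summable (corrInf b) := by
    have h := XY.summable_C hb hm
    have e : corrInf b = XY.C b := funext fun x => XY.corrInf_eq hb.le x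
    rw [e]
    exact h
  have hnn : ∀ x, 0 ≤ corrInf b x := fun x => by
    rw [XY.corrInf_eq hb.le]
    exact XY.C_nonneg hb.le x
  refine ⟨hS, ?_⟩
  set t : ℝ := bCrit - b with ht
  have ht0 : 0 < t := sub_pos.2 hbb
  have hcγ : 0 < c ^ γ := Real.rpow_pos_of_pos hc γ
  have htγ : 0 < t ^ (-γ) := Real.rpow_pos_of_pos ht0 _
  have hct : c ^ γ * t ^ (-γ) = (c / t) ^ γ := by
    rw [Real.div_rpow hc.le ht0.le, Real.rpow_neg ht0.le, div_eq_mul_inv]
  rcases lt_or_ge (c / t) 1 with h1 | h1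
  · -- far from the critical point
    have h2 : (1 : ℝ) ≤ ∑' x : ℤ × ℤ, corrInf b x := by
      have h := hS.le_tsum 0 (fun y _ => hnn y)
      rw [XY.corrInf_eq hb.le, XY.C_zero] at h
      exact h
    have h3 : (c / t) ^ γ ≤ 1 := Real.rpow_le_one (div_pos hc ht0).le h1.le hγ.le
    calc c ^ γ * min 1 c * t ^ (-γ) = min 1 c * (c / t) ^ γ := by
          rw [← hct]
          ring
      _ ≤ 1 * 1 := mul_le_mul (min_le_left _ _) h3 (Real.rpow_nonneg (div_pos hc ht0).le _)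
          zero_le_one
      _ ≤ _ := by linarith
  · set s : ℝ := (c / t) ^ (1 / p) with hs
    have hct0 : 0 < c / t := div_pos hc ht0
    have hs1 : 1 ≤ s := Real.one_le_rpow h1 (by positivity)
    have hs0 : 0 < s := by linarith
    set n : ℕ := ⌊s⌋₊ with hn
    have hn1 : 1 ≤ n := Nat.le_floor (by exact_mod_cast hs1)
    have hns : (n : ℝ) ≤ s := Nat.floor_le hs0.le
    have hn1' : (1 : ℝ) ≤ n := by exact_mod_cast hn1
    have hsn : s / 2 ≤ n := by
      have := Nat.lt_floor_add_one s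
      rw [← hn] at this
      linarith
    have hsp : s ^ p = c / t := by
      rw [hs, ← Real.rpow_mul hct0.le, one_div, inv_mul_cancel₀ hp0.ne', Real.rpow_one]
    have hterm : ∀ x ∈ (box n).erase 0, c * (n : ℝ) ^ (-(κ + ε)) ≤ corrInf b x := by
      intro x hx
      obtain ⟨hx0, hxn⟩ := Finset.mem_erase.1 hx
      have a1 := norm_pos hx0
      have a2 := norm_box hxn
      have a3 : t * ((max |x.1| |x.2| : ℤ) : ℝ) ^ p ≤ c := by
        calc t * ((max |x.1| |x.2| : ℤ) : ℝ) ^ p ≤ t * s ^ p :=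
              mul_le_mul_of_nonneg_left
                (Real.rpow_le_rpow (by linarith) (a2.trans hns) hp0.le) ht0.le
          _ = c := by
              rw [hsp]
              field_simp
      refine le_trans ?_ (hc2 b hb hbb.le x hx0 a3)
      refine mul_le_mul_of_nonneg_left ?_ hc.le
      exact Real.rpow_le_rpow_of_nonpos (by linarith) a2 (by linarith)
    have hsum : ∑ x ∈ (box n).erase 0, corrInf b x ≤ ∑' x : ℤ × ℤ, corrInf b x :=
      hS.sum_le_tsum _ (fun x _ => hnn x)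
    have hcard : (4 * (n : ℝ) ^ 2) * (c * (n : ℝ) ^ (-(κ + ε))) ≤
        ∑ x ∈ (box n).erase 0, corrInf b x := by
      have h2 := Finset.card_nsmul_le_sum ((box n).erase 0) (corrInf b) _ hterm
      rw [nsmul_eq_mul] at h2
      refine le_trans ?_ h2
      exact mul_le_mul_of_nonneg_right (card_box_erase n)
        (mul_nonneg hc.le (Real.rpow_nonneg (by linarith) _))
    have hnq : (n : ℝ) ^ 2 * (n : ℝ) ^ (-(κ + ε)) = (n : ℝ) ^ q := by
      rw [← Real.rpow_natCast, ← Real.rpow_add (by linarith)]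
      congr 1
    have hsq : (c / t) ^ γ ≤ s ^ q := by
      rw [hs, ← Real.rpow_mul hct0.le]
      refine Real.rpow_le_rpow_of_exponent_le h1 ?_
      rw [one_div, inv_mul_eq_div, le_div_iff₀ hp0]
      exact hγq
    have hn4 : s ^ q ≤ 4 * (n : ℝ) ^ q := by
      have h2 : s ^ q ≤ (2 * (n : ℝ)) ^ q :=
        Real.rpow_le_rpow hs0.le (by linarith) hq0.le
      rw [Real.mul_rpow (by norm_num) (by linarith)] at h2
      have h3 : (2 : ℝ) ^ q ≤ 4 := by
        calc (2 : ℝ) ^ q ≤ 2 ^ (2 : ℝ) := Real.rpow_le_rpow_of_exponent_le (by norm_num) hq2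
          _ = 4 := by norm_num
      exact h2.trans (mul_le_mul_of_nonneg_right h3 (Real.rpow_nonneg (by linarith) _))
    calc c ^ γ * min 1 c * t ^ (-γ) = min 1 c * (c / t) ^ γ := by
          rw [← hct]
          ring
      _ ≤ c * (4 * (n : ℝ) ^ q) :=
          mul_le_mul (min_le_right _ _) (hsq.trans hn4) (Real.rpow_nonneg hct0.le _) hc.le
      _ = (4 * (n : ℝ) ^ 2) * (c * (n : ℝ) ^ (-(κ + ε))) := by
          rw [← hnq]
          ring
      _ ≤ ∑' x : ℤ × ℤ, corrInf b x := hcard.trans hsum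

end Vale.Agent.P159.T1.NW.H566
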